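import Vale.Agent.P329.Defs
import Vale.Agent.P329.Clock.Defs
import Vale.Agent.P329.Clock.Reduct

namespace Vale.Agent.Results.P329.ClockedMarkers

open Vale.Agent.P329 Vale.Agent.P329.Clock

/-- (1) For every `n` there is `N` such that for every automaton with `n` states over a finite
alphabet, every set `U` of words and all `C`, `0 < m`, `e`, `q` with `N * (e + m) ≤ q` the
following holds. The accepted words in which every factor of length `C` contains a block between
two consecutive marks (windows of length `m` which belong to `U`) whose distance is, up to an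
error of at most `e`, a positive multiple of `q` form a language of generalized star height at
most one.
(2) For every `n` there is `N` such that for every automaton with `n` states over a finite
alphabet, all `0 < m` and `R` with `N * m ≤ R` and every map `c` from the words to the integers
modulo `R` the accepted words in which the window of length `m` at every position `i` (from `0`)
has the value `i` form a language of generalized star height at most one.
(3) Let `1 ≤ k` and let `α` be a finite alphabet. If for arbitrarily large `R` the clocked stars
of finite sets of words have generalized star height at most `k`, then every regular language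
over `α` has generalized star height at most `k`. -/
theorem result :
    (∀ n : ℕ, ∃ N : ℕ, ∀ (α : Type) [Finite α] (A : DFA α (Fin n)) (U : Set (List α))
      (m q e C : ℕ), 0 < m → N * (e + m) ≤ q →
        ∃ x : GRE α, x.height ≤ 1 ∧ x.lang = {w : List α | w ∈ A.accepts ∧
          ∀ u : List α, u <:+: w → u.length = C → ∃ g, Spaced U m q e g ∧ g <:+: u}) ∧
    (∀ n : ℕ, ∃ N : ℕ, ∀ (α : Type) [Finite α] (A : DFA α (Fin n)) (R m : ℕ),
      0 < m → N * m ≤ R → ∀ c : List α → ZMod R,
        ∃ x : GRE α, x.height ≤ 1 ∧ x.lang = {w : List α | w ∈ A.accepts ∧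
          ∀ i : ℕ, i + m ≤ w.length → c ((w.drop i).take m) = (i : ZMod R)}) ∧
    (∀ k : ℕ, 1 ≤ k → ∀ (α : Type) [Finite α],
      (∀ R₀ : ℕ, ∃ R : ℕ, R₀ ≤ R ∧ ∀ F : ZMod R → Set (List α), (∀ i, (F i).Finite) →
        ∃ x : GRE α, x.height ≤ k ∧ x.lang = {w : List α | CStar F 0 w}) →
      ∀ L : Language α, L.IsRegular → ∃ x : GRE α, x.height ≤ k ∧ x.lang = L) := by
  refine ⟨fun n => ?_, fun n => ?_, fun k hk α _ h L hL => ?_⟩
  · obtain ⟨N, -, hN⟩ := regular_marks n
    exact ⟨N, fun α _ A U m q e C hm ha => hN α _ Slow.cls_SH A U m q e hm ha C⟩
  · obtain ⟨N, -, hN⟩ := regular_wclk n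
    exact ⟨N, fun α _ A R m hm hR c => hN α _ Slow.cls_SH A R m hm hR c⟩
  · exact reduction k hk α h L hL

end Vale.Agent.Results.P329.ClockedMarkers
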